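import Vale.Agent.P235.Top
import Vale.Agent.P235.El16
import Vale.Agent.P235.V25.All

namespace Vale.Agent.Results.P235.ElimTw3

open Vale.Agent.P235

theorem result : ∀ k : ℕ, ∃ C : ℝ, ∀ (V : Type) [Fintype V] (G : SimpleGraph V),
    G.Connected → Elim G k Set.univ →
    ∀ ℓ : Sym2 V → ℝ, (∀ e ∈ G.edgeSet, 0 < ℓ e) → EmbL1 (gdist G ℓ) C :=
  Ap16.mainE (redS (SyL 0 1) (syL_total 0 1) T25.core25) tdS metS recS intS (disS intS)
    (lbS intS (disS intS) (pairS intS algS) (chainS lowS algS) potS)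

end Vale.Agent.Results.P235.ElimTw3
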