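import Vale.Agent.P235.Top
import Vale.Agent.P235.V25.All

namespace Vale.Agent.Results.P235.Tw3

open Vale.Agent.P235

theorem result : ∃ C : ℝ, ∀ (V : Type) [Fintype V] (G : SimpleGraph V), G.Connected →
    TwLe G 3 → ∀ ℓ : Sym2 V → ℝ, (∀ e ∈ G.edgeSet, 0 < ℓ e) → EmbL1 (gdist G ℓ) C :=
  top (SyL 0 1) (syL_total 0 1) T25.core25

end Vale.Agent.Results.P235.Tw3
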